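import Vale.Agent.P134.Final4
import Vale.Agent.P134.Radial

/-! # P134: monotone solutions of the Allen-Cahn equation with symmetries -/

open MeasureTheory
open scoped InnerProductSpace

namespace Vale.Agent.Results.P134.AMain

open Vale.Agent.P134

/-- (1) In every dimension `n ≥ 3`, a solution `u ∈ C²(ℝⁿ)` of `Δu = u³ - u` with `|u| ≤ 1` and
`∂_e u > 0` everywhere for some vector `e`, which is periodic in `n - 3` linearly independent
directions, is one-dimensional.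
(2) For `k = 2, 3, 4` (so `n = k + 2 = 4, 5, 6`) a solution `u ∈ C²(ℝⁿ)` with `|u| ≤ 1` which depends
only on `∑_{i ∈ Y} x_i²`, `card Y = k`, and the two coordinates outside `Y`, and satisfies
`∂_l u > 0` everywhere for one of these two, is one-dimensional.
(3) For two coordinate directions `p ≠ q`, the average of `|∇u|²|A|² + |∇_T|∇u||²` over boxes with
half sides `1` in the directions `p`, `q` and `N` in the others tends to `0` as `N → ∞`, uniformly
with respect to the centre of the box and to the monotone solution `u` (no symmetry assumed). -/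
theorem result :
    (∀ n : ℕ, 3 ≤ n → ∀ u : E n → ℝ, IsSol u → ∀ e : E n, (∀ x, 0 < dd e u x) →
      ∀ v : Fin (n - 3) → E n, LinearIndependent ℝ v → (∀ j x, u (x + v j) = u x) →
      ∃ (f : E n) (h : ℝ → ℝ), ‖f‖ = 1 ∧ ∀ x, u x = h ⟪f, x⟫_ℝ) ∧
    (∀ k : ℕ, 2 ≤ k → k ≤ 4 → ∀ Y : Finset (Fin (k + 2)), Y.card = k → ∀ l : Fin (k + 2), l ∉ Y →
      ∀ u : E (k + 2) → ℝ, IsSol u → (∀ x, 0 < pd l u x) →
      (∀ x x' : E (k + 2), (∀ i, i ∉ Y → x i = x' i) →
        ∑ i ∈ Y, x i ^ 2 = ∑ i ∈ Y, x' i ^ 2 → u x = u x') →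
      ∃ (f : E (k + 2)) (h : ℝ → ℝ), ‖f‖ = 1 ∧ ∀ x, u x = h ⟪f, x⟫_ℝ) ∧
    (∀ (n : ℕ) (p q : Fin n), p ≠ q → ∀ ε : ℝ, 0 < ε →
      ∃ N₀ : ℝ, 1 ≤ N₀ ∧ ∀ N : ℝ, N₀ ≤ N → ∀ u : E n → ℝ, IsSol u →
      ∀ e : E n, (∀ x, 0 < dd e u x) → ∀ c : E n,
      ∫ x in box c (side p q N 1), curv u x ≤ ε * N ^ (n - 2)) :=
  ⟨fun _ hn _ hu _ he _ hv hper => periodic4 hn hu he hv hper,
    fun _ h2 h4 _ hY _ hl _ hu hmon hR => radial h2 h4 hY rfl hl hu hmon hR,
    fun _ _ _ hpq _ hε => average hpq hε⟩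

end Vale.Agent.Results.P134.AMain
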