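import Vale.Agent.P134.Final

/-! # P134: monotone solutions of the Allen-Cahn equation, periodic case and averaged curvature -/

open MeasureTheory
open scoped InnerProductSpace

namespace Vale.Agent.Results.P134.Periodic

open Vale.Agent.P134

/-- (1) In every dimension `n ≥ 2`, a solution `u ∈ C²(ℝⁿ)` of `Δu = u³ - u` with `|u| ≤ 1` and
`∂_e u > 0` everywhere for some vector `e`, which is periodic in `n - 2` linearly independent
directions, is one-dimensional.
(2) For two coordinate directions `p ≠ q`, the average of `|∇u|²|A|² + |∇_T|∇u||²` over boxes with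
half sides `1` in the directions `p`, `q` and `N` in the others tends to `0` as `N → ∞`, uniformly
with respect to the centre of the box and to the solution `u` (periodic or not).
(3) The integral of this quantity over a cube of half side `R ≥ 1` is at most `C(n) R^(n-2)`. -/
theorem result :
    (∀ n : ℕ, 2 ≤ n → ∀ u : E n → ℝ, IsSol u → ∀ e : E n, (∀ x, 0 < dd e u x) →
      ∀ v : Fin (n - 2) → E n, LinearIndependent ℝ v → (∀ j x, u (x + v j) = u x) →
      ∃ (f : E n) (h : ℝ → ℝ), ‖f‖ = 1 ∧ ∀ x, u x = h ⟪f, x⟫_ℝ) ∧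
    (∀ (n : ℕ) (p q : Fin n), p ≠ q → ∀ ε : ℝ, 0 < ε →
      ∃ N₀ : ℝ, 1 ≤ N₀ ∧ ∀ N : ℝ, N₀ ≤ N → ∀ u : E n → ℝ, IsSol u →
      ∀ e : E n, (∀ x, 0 < dd e u x) → ∀ c : E n,
      ∫ x in box c (side p q N 1), curv u x ≤ ε * N ^ (n - 2)) ∧
    (∀ n : ℕ, 2 ≤ n → ∃ C : ℝ, 0 < C ∧ ∀ u : E n → ℝ, IsSol u →
      ∀ e : E n, (∀ x, 0 < dd e u x) → ∀ (c : E n) (R : ℝ), 1 ≤ R →
      ∫ x in box c (fun _ => R), curv u x ≤ C * R ^ (n - 2)) :=
  ⟨fun _ hn _ hu _ he _ hv hper => periodic hn hu he hv hper,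
    fun _ _ _ hpq _ hε => average hpq hε, fun _ hn => iso hn⟩

end Vale.Agent.Results.P134.Periodic
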